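import Mathlib

namespace Vale.Agent.Lib.P328_helper60.Flow

open Finset

variable {ι κ : Type*} [Fintype ι] [DecidableEq ι]

/-- The integer box with half-widths `S`. -/
noncomputable def box (S : ι → ℕ) : Finset (ι → ℤ) :=
  Fintype.piFinset fun e => Finset.Icc (-(S e : ℤ)) (S e)

lemma mem_box {S : ι → ℕ} {f : ι → ℤ} :
    f ∈ box S ↔ ∀ e, -(S e : ℤ) ≤ f e ∧ f e ≤ S e := by
  simp [box, Fintype.mem_piFinset, Finset.mem_Icc]

open Classical in
/-- Integer points of the box with `f e = S e` mod 2 and prescribed image under `D`. -/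
noncomputable def F (D : (ι → ℤ) →+ (κ → ℤ)) (S : ι → ℕ) (w : κ → ℤ) : Finset (ι → ℤ) :=
  (box S).filter fun f => (∀ e, (f e - S e) % 2 = 0) ∧ D f = w

open Classical in
/-- Integer points of the box in the kernel of `D`. -/
noncomputable def C (D : (ι → ℤ) →+ (κ → ℤ)) (S : ι → ℕ) : Finset (ι → ℤ) :=
  (box S).filter fun U => D U = 0

lemma mem_F {D : (ι → ℤ) →+ (κ → ℤ)} {S : ι → ℕ} {w : κ → ℤ} {f : ι → ℤ} :
    f ∈ F D S w ↔ (∀ e, -(S e : ℤ) ≤ f e ∧ f e ≤ S e) ∧ (∀ e, (f e - S e) % 2 = 0) ∧ D f = w := by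
  classical
  simp [F, mem_box]

lemma mem_C {D : (ι → ℤ) →+ (κ → ℤ)} {S : ι → ℕ} {U : ι → ℤ} :
    U ∈ C D S ↔ (∀ e, -(S e : ℤ) ≤ U e ∧ U e ≤ S e) ∧ D U = 0 := by
  classical
  simp [C, mem_box]

omit [Fintype ι] [DecidableEq ι] in
lemma halve_D (D : (ι → ℤ) →+ (κ → ℤ)) {f g U : ι → ℤ} {a b : κ → ℤ}
    (h : ∀ e, 2 * U e = f e - g e) (hf : D f = a) (hg : D g = b) (k : κ) :
    2 * D U k = a k - b k := by
  have h1 : f = U + U + g := by
    funext e
    have := h e
    simp only [Pi.add_apply]
    omega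
  have h2 : D f = D U + D U + D g := by rw [h1, map_add, map_add]
  have h3 : a k = D U k + D U k + b k := by
    rw [← hf, ← hg, h2]; simp [Pi.add_apply]
  omega

omit [Fintype ι] [DecidableEq ι] in
lemma halve_D' (D : (ι → ℤ) →+ (κ → ℤ)) {f g V : ι → ℤ} {a b : κ → ℤ}
    (h : ∀ e, 2 * V e = f e + g e) (hf : D f = a) (hg : D g = b) (k : κ) :
    2 * D V k = a k + b k := by
  have h1 : f + g = V + V := by
    funext e
    have := h e
    simp only [Pi.add_apply]
    omega
  have h2 : D f + D g = D V + D V := by rw [← map_add, ← map_add, h1]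
  have h3 : a k + b k = D V k + D V k := by
    rw [← hf, ← hg]
    have := congrFun h2 k
    simpa [Pi.add_apply] using this
  omega

/-- The squaring identity. -/
theorem card_sq (D : (ι → ℤ) →+ (κ → ℤ)) (S : ι → ℕ) (w : κ → ℤ) :
    (F D S w).card ^ 2 = ∑ U ∈ C D S, (F D (fun e => S e - (U e).natAbs) w).card := by
  classical
  have hprod : (F D S w).card ^ 2 = ((F D S w) ×ˢ (F D S w)).card := by
    rw [card_product, sq]
  rw [hprod]
  let t : (ι → ℤ) × (ι → ℤ) → (ι → ℤ) := fun p e => (p.1 e - p.2 e) / 2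
  have hmaps : Set.MapsTo t ((F D S w) ×ˢ (F D S w) : Finset _) (C D S : Finset _) := by
    rintro ⟨f, g⟩ hp
    simp only [coe_product, Set.mem_prod, mem_coe] at hp
    obtain ⟨hf, hg⟩ := hp
    obtain ⟨hf1, hf2, hf3⟩ := mem_F.1 hf
    obtain ⟨hg1, hg2, hg3⟩ := mem_F.1 hg
    simp only [mem_coe]
    refine mem_C.2 ⟨fun e => ?_, ?_⟩
    · have := hf1 e; have := hg1 e; have := hf2 e; have := hg2 e
      simp only [t]
      omega
    · funext k
      have h2 : ∀ e, 2 * t (f, g) e = f e - g e := by
        intro e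
        have := hf2 e; have := hg2 e
        simp only [t]
        omega
      have := halve_D D h2 hf3 hg3 k
      simp only [Pi.zero_apply]
      omega
  rw [Finset.card_eq_sum_card_fiberwise hmaps]
  apply Finset.sum_congr rfl
  intro U hU
  obtain ⟨hU1, hU2⟩ := mem_C.1 hU
  symm
  refine Finset.card_nbij' (fun V => (V + U, V - U)) (fun p e => (p.1 e + p.2 e) / 2) ?_ ?_ ?_ ?_
  · intro V hV
    obtain ⟨hV1, hV2, hV3⟩ := mem_F.1 hV
    simp only [coe_filter, mem_product, Set.mem_ofPred_eq]
    refine ⟨⟨?_, ?_⟩, ?_⟩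
    · refine mem_F.2 ⟨fun e => ?_, fun e => ?_, ?_⟩
      · have := hV1 e; have := hU1 e
        simp only [Pi.add_apply]
        omega
      · have := hV2 e; have := hU1 e
        simp only [Pi.add_apply]
        omega
      · rw [map_add, hV3, hU2, add_zero]
    · refine mem_F.2 ⟨fun e => ?_, fun e => ?_, ?_⟩
      · have := hV1 e; have := hU1 e
        simp only [Pi.sub_apply]
        omega
      · have := hV2 e; have := hU1 e
        simp only [Pi.sub_apply]
        omega
      · rw [map_sub, hV3, hU2, sub_zero]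
    · funext e
      simp only [t, Pi.add_apply, Pi.sub_apply]
      omega
  · rintro ⟨f, g⟩ hp
    simp only [coe_filter, mem_product, Set.mem_ofPred_eq] at hp
    obtain ⟨⟨hf, hg⟩, hfg⟩ := hp
    obtain ⟨hf1, hf2, hf3⟩ := mem_F.1 hf
    obtain ⟨hg1, hg2, hg3⟩ := mem_F.1 hg
    have hUe : ∀ e, (f e - g e) / 2 = U e := fun e => congrFun hfg e
    simp only [mem_coe]
    refine mem_F.2 ⟨fun e => ?_, fun e => ?_, ?_⟩
    · have := hf1 e; have := hg1 e; have := hf2 e; have := hg2 e; have := hUe e
      omega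
    · have := hf2 e; have := hg2 e; have := hUe e; have := hU1 e
      omega
    · funext k
      have h2 : ∀ e, 2 * ((f e + g e) / 2) = f e + g e := by
        intro e
        have := hf2 e; have := hg2 e
        omega
      have := halve_D' D (V := fun e => (f e + g e) / 2) h2 hf3 hg3 k
      have e1 : w k + w k = 2 * w k := by ring
      omega
  · intro V hV
    funext e
    simp only [Pi.add_apply, Pi.sub_apply]
    omega
  · rintro ⟨f, g⟩ hp
    simp only [coe_filter, mem_product, Set.mem_ofPred_eq] at hp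
    obtain ⟨⟨hf, hg⟩, hfg⟩ := hp
    obtain ⟨hf1, hf2, hf3⟩ := mem_F.1 hf
    obtain ⟨hg1, hg2, hg3⟩ := mem_F.1 hg
    have hUe : ∀ e, (f e - g e) / 2 = U e := fun e => congrFun hfg e
    ext e
    · have := hf2 e; have := hg2 e; have := hUe e
      simp only [Pi.add_apply]
      omega
    · have := hf2 e; have := hg2 e; have := hUe e
      simp only [Pi.sub_apply]
      omega

/-- Feasibility monotone for all capacities implies count monotone for all capacities. -/
theorem card_le (D : (ι → ℤ) →+ (κ → ℤ)) (ξ η : κ → ℤ)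
    (hsupp : ∀ S : ι → ℕ, (F D S ξ).Nonempty → (F D S η).Nonempty) :
    ∀ S : ι → ℕ, (F D S ξ).card ≤ (F D S η).card := by
  classical
  have key : ∀ N : ℕ, ∀ S : ι → ℕ, ∑ e, S e = N → (F D S ξ).card ≤ (F D S η).card := by
    intro N
    induction N using Nat.strong_induction_on with
    | _ N ih =>
      intro S hS
      have h0 : (0 : ι → ℤ) ∈ C D S := by
        refine mem_C.2 ⟨fun e => ?_, map_zero D⟩
        simp
      have hzero : (fun e => S e - ((0 : ι → ℤ) e).natAbs) = S := by
        funext e; simp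
      have hP := card_sq D S ξ
      have hQ := card_sq D S η
      rw [← Finset.add_sum_erase _ _ h0, hzero] at hP hQ
      have hsum : ∑ U ∈ (C D S).erase 0, (F D (fun e => S e - (U e).natAbs) ξ).card
          ≤ ∑ U ∈ (C D S).erase 0, (F D (fun e => S e - (U e).natAbs) η).card := by
        apply Finset.sum_le_sum
        intro U hU
        obtain ⟨hU0, hUC⟩ := Finset.mem_erase.1 hU
        obtain ⟨hU1, -⟩ := mem_C.1 hUC
        refine ih (∑ e, (S e - (U e).natAbs)) ?_ _ rfl
        rw [← hS]
        have hne : ∃ e, U e ≠ 0 := by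
          by_contra hcon
          push Not at hcon
          exact hU0 (funext hcon)
        obtain ⟨e0, he0⟩ := hne
        apply Finset.sum_lt_sum
        · intro e _
          omega
        · refine ⟨e0, Finset.mem_univ _, ?_⟩
          have := hU1 e0
          omega
      set P := (F D S ξ).card with hPdef
      set Q := (F D S η).card with hQdef
      by_cases hP0 : P = 0
      · omega
      have hQ1 : 1 ≤ Q := by
        have hne : (F D S ξ).Nonempty := by
          rw [← Finset.card_pos]; omega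
        have := hsupp S hne
        rw [← Finset.card_pos] at this
        omega
      by_contra hlt
      push Not at hlt
      have hP1 : Q + 1 ≤ P := hlt
      nlinarith [hP, hQ, hsum, hP1, hQ1]
  intro S
  exact key _ S rfl

end Vale.Agent.Lib.P328_helper60.Flow
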