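import Mathlib
import Vale.Agent.Lib.P328_helper60.Flow

namespace Vale.Agent.Lib.P328_helper60.Tables

open Finset
open Vale.Agent.Lib.P328_helper60.Flow

variable {m n : ℕ}

/-- All contingency tables with row sums `r` and column sums `v`. -/
def tables (r : Fin m → ℕ) (v : Fin n → ℕ) : Finset (Fin m → Fin n → ℕ) :=
  (Fintype.piFinset fun a => Fintype.piFinset fun _ : Fin n => Finset.range (r a + 1)).filter
    fun T => (∀ a, ∑ j, T a j = r a) ∧ ∀ j, ∑ a, T a j = v j

/-- The number of contingency tables with row sums `r` and column sums `v`. -/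
def W (r : Fin m → ℕ) (v : Fin n → ℕ) : ℕ := (tables r v).card

lemma mem_tables {r : Fin m → ℕ} {v : Fin n → ℕ} {T : Fin m → Fin n → ℕ} :
    T ∈ tables r v ↔ (∀ a, ∑ j, T a j = r a) ∧ ∀ j, ∑ a, T a j = v j := by
  simp only [tables, Finset.mem_filter, Fintype.mem_piFinset, Finset.mem_range]
  constructor
  · exact fun h => h.2
  · intro h
    refine ⟨fun a j => ?_, h⟩
    have h1 : T a j ≤ ∑ j, T a j :=
      Finset.single_le_sum (f := fun j => T a j) (fun _ _ => Nat.zero_le _) (Finset.mem_univ j)
    have := h.1 a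
    omega

/-- Row and column sums of a real-indexed integer array, as an additive map. -/
def divHom (m n : ℕ) : ((Fin m × Fin n) → ℤ) →+ ((Fin m ⊕ Fin n) → ℤ) where
  toFun f := Sum.elim (fun a => ∑ j, f (a, j)) (fun j => ∑ a, f (a, j))
  map_zero' := by
    funext k
    cases k <;> simp
  map_add' f g := by
    funext k
    cases k <;> simp [Finset.sum_add_distrib]

/-- Target for `divHom`: zero row sums, column sums `d`. -/
def tgt (d : Fin n → ℤ) : (Fin m ⊕ Fin n) → ℤ := Sum.elim (fun _ => 0) d

lemma divHom_eq_tgt {f : (Fin m × Fin n) → ℤ} {d : Fin n → ℤ} :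
    divHom m n f = tgt d ↔ (∀ a, ∑ j, f (a, j) = 0) ∧ ∀ j, ∑ a, f (a, j) = d j := by
  constructor
  · intro h
    exact ⟨fun a => congrFun h (Sum.inl a), fun j => congrFun h (Sum.inr j)⟩
  · rintro ⟨h1, h2⟩
    funext k
    cases k with
    | inl a => exact h1 a
    | inr j => exact h2 j

lemma sum_col_single (a' a : Fin m) (p : Fin n) :
    (∑ j, (if ((a', j) : Fin m × Fin n) = (a, p) then (1 : ℤ) else 0)) = if a' = a then 1 else 0 := by
  by_cases h : a' = a
  · subst h
    simp
  · simp [h]

lemma sum_row_single (a : Fin m) (j p : Fin n) :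
    (∑ a', (if ((a', j) : Fin m × Fin n) = (a, p) then (1 : ℤ) else 0)) = if j = p then 1 else 0 := by
  by_cases h : j = p
  · subst h
    simp
  · simp [h]

/-- Conformal path extraction from a source column. -/
lemma conformal (N : ℕ) : ∀ (f : (Fin m × Fin n) → ℤ) (d : Fin n → ℤ) (p : Fin n),
    ∑ e, (f e).natAbs = N → (∀ a, ∑ j, f (a, j) = 0) → (∀ j, ∑ a, f (a, j) = d j) → 0 < d p →
    ∃ (g : (Fin m × Fin n) → ℤ) (q : Fin n), d q < 0 ∧
      (∀ e, (0 ≤ g e ∧ g e ≤ f e) ∨ (f e ≤ g e ∧ g e ≤ 0)) ∧
      (∀ a, ∑ j, g (a, j) = 0) ∧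
      (∀ j, ∑ a, g (a, j) = (if j = p then 1 else 0) - (if j = q then 1 else 0)) := by
  induction N using Nat.strong_induction_on with
  | _ N ih =>
    intro f d p hN hrow hcol hp
    obtain ⟨a, ha⟩ : ∃ a, 0 < f (a, p) := by
      by_contra hcon
      push Not at hcon
      have : ∑ a, f (a, p) ≤ 0 := Finset.sum_nonpos (fun a _ => hcon a)
      rw [hcol p] at this
      omega
    obtain ⟨k, hk⟩ : ∃ k, f (a, k) < 0 := by
      by_contra hcon
      push Not at hcon
      have h1 : f (a, p) ≤ ∑ j, f (a, j) :=
        Finset.single_le_sum (f := fun j => f (a, j)) (fun j _ => hcon j) (Finset.mem_univ p)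
      rw [hrow a] at h1
      omega
    have hkp : k ≠ p := by
      rintro rfl
      omega
    -- the two unit arrays
    let ep : (Fin m × Fin n) → ℤ := fun e => if e = (a, p) then 1 else 0
    let ek : (Fin m × Fin n) → ℤ := fun e => if e = (a, k) then 1 else 0
    have hne : ((a, p) : Fin m × Fin n) ≠ (a, k) := by
      intro h
      exact hkp (Prod.ext_iff.1 h).2.symm
    by_cases hdk : d k < 0
    · refine ⟨fun e => ep e - ek e, k, hdk, ?_, ?_, ?_⟩
      · intro e
        by_cases h1 : e = (a, p)
        · subst h1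
          left
          simp only [ep, ek, if_true, if_neg hne]
          omega
        · by_cases h2 : e = (a, k)
          · subst h2
            right
            simp only [ep, ek, if_true, if_neg h1]
            omega
          · simp only [ep, ek, if_neg h1, if_neg h2]
            by_cases h3 : 0 ≤ f e
            · left; omega
            · right; omega
      · intro a'
        simp only [ep, ek, Finset.sum_sub_distrib, sum_col_single]
        omega
      · intro j
        simp only [ep, ek, Finset.sum_sub_distrib, sum_row_single]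
    · push Not at hdk
      let f' : (Fin m × Fin n) → ℤ := fun e => f e - ep e + ek e
      let d' : Fin n → ℤ := fun j => d j - (if j = p then 1 else 0) + (if j = k then 1 else 0)
      have hlt : ∑ e, (f' e).natAbs < N := by
        rw [← hN]
        apply Finset.sum_lt_sum
        · intro e _
          by_cases h1 : e = (a, p)
          · subst h1
            simp only [f', ep, ek, if_true, if_neg hne]
            omega
          · by_cases h2 : e = (a, k)
            · subst h2
              simp only [f', ep, ek, if_true, if_neg h1]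
              omega
            · simp only [f', ep, ek, if_neg h1, if_neg h2]
              omega
        · refine ⟨(a, p), Finset.mem_univ _, ?_⟩
          simp only [f', ep, ek, if_true, if_neg hne]
          omega
      have hrow' : ∀ a', ∑ j, f' (a', j) = 0 := by
        intro a'
        simp only [f', ep, ek, Finset.sum_add_distrib, Finset.sum_sub_distrib, sum_col_single, hrow]
        omega
      have hcol' : ∀ j, ∑ a', f' (a', j) = d' j := by
        intro j
        simp only [f', d', ep, ek, Finset.sum_add_distrib, Finset.sum_sub_distrib, sum_row_single,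
          hcol]
      have hdk' : 0 < d' k := by
        simp only [d', if_true, if_neg hkp]
        omega
      obtain ⟨g, q, hq, hconf, hgrow, hgcol⟩ := ih _ hlt f' d' k rfl hrow' hcol' hdk'
      have hqk : q ≠ k := by
        rintro rfl
        omega
      have hqp : q ≠ p := by
        rintro rfl
        simp only [d', if_true] at hq
        omega
      refine ⟨fun e => g e + ep e - ek e, q, ?_, ?_, ?_, ?_⟩
      · simp only [d', if_neg hqp, if_neg hqk] at hq
        omega
      · intro e
        have hc := hconf e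
        by_cases h1 : e = (a, p)
        · subst h1
          simp only [f', ep, ek, if_true, if_neg hne] at hc ⊢
          left
          omega
        · by_cases h2 : e = (a, k)
          · subst h2
            simp only [f', ep, ek, if_true, if_neg h1] at hc ⊢
            right
            omega
          · simp only [f', ep, ek, if_neg h1, if_neg h2] at hc ⊢
            omega
      · intro a'
        simp only [ep, ek, Finset.sum_add_distrib, Finset.sum_sub_distrib, sum_col_single, hgrow]
        omega
      · intro j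
        simp only [ep, ek, Finset.sum_add_distrib, Finset.sum_sub_distrib, sum_row_single, hgcol]
        omega

/-- Feasibility is preserved by moving two units of excess from a source `p` to the only sink `q`. -/
lemma support (d : Fin n → ℤ) (p q : Fin n) (hp : 0 < d p) (hq : ∀ j, j ≠ q → 0 ≤ d j)
    (S : (Fin m × Fin n) → ℕ) (hne : (F (divHom m n) S (tgt d)).Nonempty) :
    (F (divHom m n) S
      (tgt fun j => d j - 2 * (if j = p then 1 else 0) + 2 * (if j = q then 1 else 0))).Nonempty := by
  obtain ⟨f, hf⟩ := hne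
  obtain ⟨hf1, hf2, hf3⟩ := mem_F.1 hf
  obtain ⟨hrow, hcol⟩ := divHom_eq_tgt.1 hf3
  obtain ⟨g, q', hq', hconf, hgrow, hgcol⟩ := conformal _ f d p rfl hrow hcol hp
  have hqq : q' = q := by
    by_contra h
    have := hq q' h
    omega
  subst hqq
  refine ⟨fun e => f e - 2 * g e, mem_F.2 ⟨fun e => ?_, fun e => ?_, ?_⟩⟩
  · have := hf1 e
    have := hconf e
    omega
  · have := hf2 e
    omega
  · refine divHom_eq_tgt.2 ⟨fun a => ?_, fun j => ?_⟩
    · simp only [Finset.sum_sub_distrib, ← Finset.mul_sum, hrow, hgrow]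
      simp
    · simp only [Finset.sum_sub_distrib, ← Finset.mul_sum, hcol, hgcol]
      ring

/-- Pairs-sum arrays. -/
def SS (r : Fin m → ℕ) (c : Fin n → ℕ) : Finset ((Fin m × Fin n) → ℕ) :=
  (Fintype.piFinset fun e : Fin m × Fin n => Finset.range (2 * r e.1 + 1)).filter
    fun S => (∀ a, ∑ j, S (a, j) = 2 * r a) ∧ ∀ j, ∑ a, S (a, j) = c j

lemma mem_SS {r : Fin m → ℕ} {c : Fin n → ℕ} {S : (Fin m × Fin n) → ℕ} :
    S ∈ SS r c ↔ (∀ a, ∑ j, S (a, j) = 2 * r a) ∧ ∀ j, ∑ a, S (a, j) = c j := by
  simp only [SS, Finset.mem_filter, Fintype.mem_piFinset, Finset.mem_range]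
  constructor
  · exact fun h => h.2
  · intro h
    refine ⟨fun e => ?_, h⟩
    have h1 : S (e.1, e.2) ≤ ∑ j, S (e.1, j) :=
      Finset.single_le_sum (f := fun j => S (e.1, j)) (fun _ _ => Nat.zero_le _)
        (Finset.mem_univ e.2)
    have := h.1 e.1
    simp only [Prod.mk.eta] at h1
    omega

/-- Product of two table counts as a sum over pair-sum arrays. -/
theorem pair_count (r : Fin m → ℕ) (v v' : Fin n → ℕ) :
    W r v * W r v' = ∑ S ∈ SS r (fun j => v j + v' j),
      (F (divHom m n) S (tgt fun j => (v j : ℤ) - v' j)).card := by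
  classical
  unfold W
  rw [← Finset.card_product]
  let t : (Fin m → Fin n → ℕ) × (Fin m → Fin n → ℕ) → ((Fin m × Fin n) → ℕ) :=
    fun p e => p.1 e.1 e.2 + p.2 e.1 e.2
  have hmaps : Set.MapsTo t ((tables r v) ×ˢ (tables r v') : Finset _)
      (SS r (fun j => v j + v' j) : Finset _) := by
    rintro ⟨T1, T2⟩ hp
    simp only [coe_product, Set.mem_prod, mem_coe] at hp
    obtain ⟨h1, h2⟩ := hp
    obtain ⟨h1r, h1c⟩ := mem_tables.1 h1
    obtain ⟨h2r, h2c⟩ := mem_tables.1 h2
    simp only [mem_coe]
    refine mem_SS.2 ⟨fun a => ?_, fun j => ?_⟩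
    · simp only [t, Finset.sum_add_distrib, h1r, h2r]
      omega
    · simp only [t, Finset.sum_add_distrib, h1c, h2c]
  rw [Finset.card_eq_sum_card_fiberwise hmaps]
  apply Finset.sum_congr rfl
  intro S hS
  obtain ⟨hSr, hSc⟩ := mem_SS.1 hS
  refine Finset.card_nbij' (fun p e => (p.1 e.1 e.2 : ℤ) - p.2 e.1 e.2)
    (fun f => (fun a j => (((S (a, j) : ℤ) + f (a, j)) / 2).toNat,
      fun a j => (((S (a, j) : ℤ) - f (a, j)) / 2).toNat)) ?_ ?_ ?_ ?_
  · rintro ⟨T1, T2⟩ hp
    simp only [coe_filter, mem_product, Set.mem_ofPred_eq] at hp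
    obtain ⟨⟨h1, h2⟩, hST⟩ := hp
    obtain ⟨h1r, h1c⟩ := mem_tables.1 h1
    obtain ⟨h2r, h2c⟩ := mem_tables.1 h2
    have hSe : ∀ e, S e = T1 e.1 e.2 + T2 e.1 e.2 := fun e => (congrFun hST e).symm
    simp only [mem_coe]
    refine mem_F.2 ⟨fun e => ?_, fun e => ?_, ?_⟩
    · have := hSe e
      omega
    · have := hSe e
      omega
    · refine divHom_eq_tgt.2 ⟨fun a => ?_, fun j => ?_⟩
      · simp only [Finset.sum_sub_distrib, ← Nat.cast_sum, h1r, h2r]
        simp
      · simp only [Finset.sum_sub_distrib, ← Nat.cast_sum, h1c, h2c]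
  · intro f hf
    obtain ⟨hf1, hf2, hf3⟩ := mem_F.1 hf
    obtain ⟨hrow, hcol⟩ := divHom_eq_tgt.1 hf3
    have hT1 : ∀ a j, ((((S (a, j) : ℤ) + f (a, j)) / 2).toNat : ℤ) * 2 = S (a, j) + f (a, j) := by
      intro a j
      have := hf1 (a, j); have := hf2 (a, j)
      omega
    have hT2 : ∀ a j, ((((S (a, j) : ℤ) - f (a, j)) / 2).toNat : ℤ) * 2 = S (a, j) - f (a, j) := by
      intro a j
      have := hf1 (a, j); have := hf2 (a, j)
      omega
    simp only [coe_filter, mem_product, Set.mem_ofPred_eq]
    refine ⟨⟨mem_tables.2 ⟨fun a => ?_, fun j => ?_⟩, mem_tables.2 ⟨fun a => ?_, fun j => ?_⟩⟩, ?_⟩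
    · have h : ((∑ j, (((S (a, j) : ℤ) + f (a, j)) / 2).toNat : ℕ) : ℤ) * 2 = 2 * r a := by
        rw [Nat.cast_sum, Finset.sum_mul]
        simp only [hT1, Finset.sum_add_distrib, hrow, ← Nat.cast_sum, hSr]
        simp
      omega
    · have h : ((∑ a, (((S (a, j) : ℤ) + f (a, j)) / 2).toNat : ℕ) : ℤ) * 2 = 2 * v j := by
        rw [Nat.cast_sum, Finset.sum_mul]
        simp only [hT1, Finset.sum_add_distrib, hcol, ← Nat.cast_sum, hSc]
        push_cast
        ring
      omega
    · have h : ((∑ j, (((S (a, j) : ℤ) - f (a, j)) / 2).toNat : ℕ) : ℤ) * 2 = 2 * r a := by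
        rw [Nat.cast_sum, Finset.sum_mul]
        simp only [hT2, Finset.sum_sub_distrib, hrow, ← Nat.cast_sum, hSr]
        simp
      omega
    · have h : ((∑ a, (((S (a, j) : ℤ) - f (a, j)) / 2).toNat : ℕ) : ℤ) * 2 = 2 * v' j := by
        rw [Nat.cast_sum, Finset.sum_mul]
        simp only [hT2, Finset.sum_sub_distrib, hcol, ← Nat.cast_sum, hSc]
        push_cast
        ring
      omega
    · funext ⟨a, j⟩
      have h1 := hT1 a j
      have h2 := hT2 a j
      simp only [t]
      omega
  · rintro ⟨T1, T2⟩ hp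
    simp only [coe_filter, mem_product, Set.mem_ofPred_eq] at hp
    obtain ⟨⟨h1, h2⟩, hST⟩ := hp
    have hSe : ∀ e, S e = T1 e.1 e.2 + T2 e.1 e.2 := fun e => (congrFun hST e).symm
    have hS3 : ∀ a j, S (a, j) = T1 a j + T2 a j := fun a j => hSe (a, j)
    ext a j
    · have := hS3 a j
      simp only
      omega
    · have := hS3 a j
      simp only
      omega
  · intro f hf
    obtain ⟨hf1, hf2, hf3⟩ := mem_F.1 hf
    funext ⟨a, j⟩
    have := hf1 (a, j)
    have := hf2 (a, j)
    simp only
    omega

/-- The transfer inequality for numbers of contingency tables. -/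
theorem transfer (r : Fin m → ℕ) (z z' : Fin n → ℕ) (p q : Fin n)
    (h : ∀ j, j ≠ q → z' j ≤ z j) :
    W r (z + Pi.single p 1) * W r (z' + Pi.single q 1)
      ≤ W r (z + Pi.single q 1) * W r (z' + Pi.single p 1) := by
  classical
  by_cases hpq : p = q
  · subst hpq
    exact le_rfl
  rw [pair_count, pair_count]
  have hc : (fun j => (z + Pi.single p 1 : Fin n → ℕ) j + (z' + Pi.single q 1 : Fin n → ℕ) j)
      = (fun j => (z + Pi.single q 1 : Fin n → ℕ) j + (z' + Pi.single p 1 : Fin n → ℕ) j) := by
    funext j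
    simp only [Pi.add_apply]
    omega
  rw [hc]
  apply Finset.sum_le_sum
  intro S _
  set d : Fin n → ℤ :=
    fun j => ((z + Pi.single p 1 : Fin n → ℕ) j : ℤ) - (z' + Pi.single q 1 : Fin n → ℕ) j with hd
  have hd' : (fun j => ((z + Pi.single q 1 : Fin n → ℕ) j : ℤ) - (z' + Pi.single p 1 : Fin n → ℕ) j)
      = fun j => d j - 2 * (if j = p then 1 else 0) + 2 * (if j = q then 1 else 0) := by
    funext j
    simp only [hd, Pi.add_apply, Pi.single_apply]
    by_cases h1 : j = p
    · by_cases h2 : j = q
      · exact absurd (h1.symm.trans h2) hpq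
      · simp [h1, hpq]
        ring
    · by_cases h2 : j = q
      · subst h2
        simp [h1]
        ring
      · simp [h1, h2]
  rw [hd']
  apply card_le (divHom m n) (tgt d)
  intro S' hne
  refine support d p q ?_ ?_ S' hne
  · simp only [hd, Pi.add_apply, Pi.single_apply, if_true, if_neg hpq]
    have := h p hpq
    push_cast
    omega
  · intro j hj
    simp only [hd, Pi.add_apply, Pi.single_apply, if_neg hj]
    have := h j hj
    split_ifs <;> push_cast <;> omega

end Vale.Agent.Lib.P328_helper60.Tables
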