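import Mathlib

namespace Vale.Agent.Lib.P328_helper60.Seq

open Finset

/-- One-dimensional capacity lemma for sequences with monotone ratios. -/
theorem exists_tilt (a : ℕ → ℝ) (ha : ∀ k, 0 ≤ a k)
    (H : ∀ i l, i ≤ l → a i * a (l + 2) ≤ a (i + 1) * a (l + 1))
    (K : ℕ) (hK : 0 < a K) (D : ℕ) :
    ∃ z : ℝ, 0 < z ∧ ∑ k ∈ range (D + 1), a k * z ^ k ≤ 4 * ((K : ℝ) + 1) * (a K * z ^ K) := by
  by_cases hpos : 0 < a (K + 1)
  · -- the generic case
    set ρ : ℝ := ((K : ℝ) + 1) / ((K : ℝ) + 2) with hρ
    have hK1 : (0 : ℝ) < (K : ℝ) + 1 := by positivity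
    have hK2 : (0 : ℝ) < (K : ℝ) + 2 := by positivity
    have hρpos : 0 < ρ := by positivity
    have hρlt : ρ < 1 := by
      rw [hρ, div_lt_one hK2]
      linarith
    set z : ℝ := ρ * a K / a (K + 1) with hz
    have hzpos : 0 < z := by positivity
    set t : ℝ := a K * z ^ K with ht
    have htpos : 0 < t := by positivity
    refine ⟨z, hzpos, ?_⟩
    -- upward terms
    have hup_step : ∀ i, a (K + i + 1) * z ≤ ρ * a (K + i) := by
      intro i
      have h : a K * a (K + i + 1) ≤ a (K + 1) * a (K + i) := by
        cases i with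
        | zero => simp [mul_comm]
        | succ i =>
          have := H K (K + i) (by omega)
          have e1 : K + (i + 1) + 1 = K + i + 2 := by omega
          have e2 : K + (i + 1) = K + i + 1 := by omega
          rw [e1, e2]
          exact this
      rw [hz]
      have h2 : a (K + i + 1) * (ρ * a K / a (K + 1)) = ρ * (a K * a (K + i + 1)) / a (K + 1) := by
        field_simp
      rw [h2, div_le_iff₀ hpos]
      nlinarith [mul_le_mul_of_nonneg_left h hρpos.le]
    have hup : ∀ i, a (K + i) * z ^ (K + i) ≤ ρ ^ i * t := by
      intro i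
      induction i with
      | zero => simp [ht]
      | succ i ih =>
        have e : K + (i + 1) = K + i + 1 := by omega
        rw [e, pow_succ z, pow_succ ρ]
        have h3 := hup_step i
        have h4 : 0 ≤ z ^ (K + i) := by positivity
        calc a (K + i + 1) * (z ^ (K + i) * z) = (a (K + i + 1) * z) * z ^ (K + i) := by ring
          _ ≤ (ρ * a (K + i)) * z ^ (K + i) := mul_le_mul_of_nonneg_right h3 h4
          _ = ρ * (a (K + i) * z ^ (K + i)) := by ring
          _ ≤ ρ * (ρ ^ i * t) := mul_le_mul_of_nonneg_left ih hρpos.le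
          _ = ρ ^ i * ρ * t := by ring
    -- downward terms
    have hdown_step : ∀ k, k < K → a k ≤ ρ⁻¹ * (a (k + 1) * z) := by
      intro k hk
      have h : a k * a (K + 1) ≤ a (k + 1) * a K := by
        obtain ⟨l, rfl⟩ : ∃ l, K = l + 1 := ⟨K - 1, by omega⟩
        have := H k l (by omega)
        simpa using this
      rw [hz]
      have h2 : ρ⁻¹ * (a (k + 1) * (ρ * a K / a (K + 1))) = a (k + 1) * a K / a (K + 1) := by
        field_simp
      rw [h2, le_div_iff₀ hpos]
      exact h
    have hρinv1 : 1 ≤ ρ⁻¹ := by
      rw [one_le_inv₀ hρpos]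
      exact hρlt.le
    have hdown : ∀ i, i ≤ K → a (K - i) * z ^ (K - i) ≤ (ρ⁻¹) ^ i * t := by
      intro i
      induction i with
      | zero => intro _; simp [ht]
      | succ i ih =>
        intro hi
        have h1 := ih (by omega)
        have e : K - i = (K - (i + 1)) + 1 := by omega
        have h2 := hdown_step (K - (i + 1)) (by omega)
        rw [← e] at h2
        have h3 : 0 ≤ z ^ (K - (i + 1)) := by positivity
        have e2 : z ^ (K - i) = z ^ (K - (i + 1)) * z := by
          rw [e, pow_succ]
        calc a (K - (i + 1)) * z ^ (K - (i + 1))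
            ≤ (ρ⁻¹ * (a (K - i) * z)) * z ^ (K - (i + 1)) := mul_le_mul_of_nonneg_right h2 h3
          _ = ρ⁻¹ * (a (K - i) * z ^ (K - i)) := by rw [e2]; ring
          _ ≤ ρ⁻¹ * ((ρ⁻¹) ^ i * t) := by
              apply mul_le_mul_of_nonneg_left h1
              positivity
          _ = (ρ⁻¹) ^ (i + 1) * t := by rw [pow_succ]; ring
    -- bound on the inverse powers
    have hinv3 : (ρ⁻¹) ^ K ≤ 3 := by
      have e : ρ⁻¹ = 1 + 1 / ((K : ℝ) + 1) := by
        rw [hρ, inv_div]
        field_simp
        ring
      have h1 : ρ⁻¹ ≤ Real.exp (1 / ((K : ℝ) + 1)) := by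
        rw [e]
        have := Real.add_one_le_exp (1 / ((K : ℝ) + 1))
        linarith
      have h2 : (ρ⁻¹) ^ K ≤ Real.exp (1 / ((K : ℝ) + 1)) ^ K :=
        pow_le_pow_left₀ (by positivity) h1 K
      have h3 : Real.exp (1 / ((K : ℝ) + 1)) ^ K = Real.exp ((K : ℝ) * (1 / ((K : ℝ) + 1))) := by
        rw [← Real.exp_nat_mul]
      have h4 : (K : ℝ) * (1 / ((K : ℝ) + 1)) ≤ 1 := by
        rw [mul_one_div, div_le_one hK1]
        linarith
      have h5 : Real.exp ((K : ℝ) * (1 / ((K : ℝ) + 1))) ≤ Real.exp 1 := Real.exp_le_exp.2 h4
      have h6 := Real.exp_one_lt_d9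
      linarith
    -- pointwise bound
    have hpt : ∀ k, a k * z ^ k ≤ (if k < K then 3 * t else ρ ^ (k - K) * t) := by
      intro k
      split_ifs with h
      · have h1 := hdown (K - k) (by omega)
        have e : K - (K - k) = k := by omega
        rw [e] at h1
        have h2 : (ρ⁻¹) ^ (K - k) ≤ (ρ⁻¹) ^ K := pow_le_pow_right₀ hρinv1 (by omega)
        have h3 : (ρ⁻¹) ^ (K - k) * t ≤ 3 * t :=
          mul_le_mul_of_nonneg_right (h2.trans hinv3) htpos.le
        linarith
      · have h1 := hup (k - K)
        have e : K + (k - K) = k := by omega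
        rw [e] at h1
        exact h1
    -- summation
    have hsum : ∀ N, ∑ k ∈ range (K + N), (if k < K then 3 * t else ρ ^ (k - K) * t)
        ≤ 3 * K * t + ((K : ℝ) + 2) * (1 - ρ ^ N) * t := by
      intro N
      induction N with
      | zero =>
        simp only [add_zero, pow_zero, sub_self, mul_zero, zero_mul]
        have : ∑ k ∈ range K, (if k < K then 3 * t else ρ ^ (k - K) * t)
            = ∑ k ∈ range K, 3 * t := by
          apply Finset.sum_congr rfl
          intro k hk
          rw [if_pos (Finset.mem_range.1 hk)]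
        rw [this, Finset.sum_const, Finset.card_range, nsmul_eq_mul]
        linarith
      | succ N ih =>
        have e : K + (N + 1) = K + N + 1 := by omega
        rw [e, Finset.sum_range_succ]
        have h1 : ¬ (K + N < K) := by omega
        rw [if_neg h1]
        have e2 : K + N - K = N := by omega
        rw [e2]
        have h2 : ((K : ℝ) + 2) * (1 - ρ) = 1 := by
          rw [hρ]
          field_simp
          ring
        have h3 : ρ ^ (N + 1) = ρ ^ N * ρ := pow_succ ρ N
        have h4 : ((K : ℝ) + 2) * (1 - ρ ^ (N + 1)) * t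
            = ((K : ℝ) + 2) * (1 - ρ ^ N) * t + ρ ^ N * t * (((K : ℝ) + 2) * (1 - ρ)) := by
          rw [h3]
          ring
        rw [h2] at h4
        linarith
    have hρN : ∀ N : ℕ, 0 ≤ ρ ^ N := fun N => by positivity
    calc ∑ k ∈ range (D + 1), a k * z ^ k
        ≤ ∑ k ∈ range (K + (D + 1)), a k * z ^ k := by
          apply Finset.sum_le_sum_of_subset_of_nonneg
          · intro k hk
            simp only [Finset.mem_range] at hk ⊢
            omega
          · intro k _ _
            have := ha k
            positivity
      _ ≤ ∑ k ∈ range (K + (D + 1)), (if k < K then 3 * t else ρ ^ (k - K) * t) :=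
          Finset.sum_le_sum fun k _ => hpt k
      _ ≤ 3 * K * t + ((K : ℝ) + 2) * (1 - ρ ^ (D + 1)) * t := hsum (D + 1)
      _ ≤ 4 * ((K : ℝ) + 1) * t := by
          have h1 := hρN (D + 1)
          have h2 : ((K : ℝ) + 2) * (1 - ρ ^ (D + 1)) * t ≤ ((K : ℝ) + 2) * t := by
            apply mul_le_mul_of_nonneg_right _ htpos.le
            nlinarith
          nlinarith
  · -- the top of the support
    have hzero : a (K + 1) = 0 := le_antisymm (not_lt.1 hpos) (ha _)
    have hvan : ∀ i, a (K + 1 + i) = 0 := by
      intro i
      induction i with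
      | zero => simpa using hzero
      | succ i ih =>
        have h := H K (K + i) (by omega)
        have e1 : K + i + 2 = K + 1 + (i + 1) := by omega
        have e2 : K + i + 1 = K + 1 + i := by omega
        rw [e1, e2, ih, mul_zero] at h
        have h2 : 0 ≤ a (K + 1 + (i + 1)) := ha _
        nlinarith
    set z : ℝ := 1 + ∑ k ∈ range K, a k / a K with hz
    have hz1 : 1 ≤ z := by
      have : 0 ≤ ∑ k ∈ range K, a k / a K :=
        Finset.sum_nonneg fun k _ => div_nonneg (ha k) hK.le
      linarith
    have hzpos : 0 < z := by linarith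
    refine ⟨z, hzpos, ?_⟩
    set t : ℝ := a K * z ^ K with ht
    have htpos : 0 < t := by positivity
    have hpt : ∀ k, a k * z ^ k ≤ (if k ≤ K then t else 0) := by
      intro k
      split_ifs with h
      · rcases Nat.lt_or_ge k K with h1 | h1
        · have h2 : a k / a K ≤ z := by
            have h3 : a k / a K ≤ ∑ k ∈ range K, a k / a K :=
              Finset.single_le_sum (f := fun k => a k / a K)
                (fun k _ => div_nonneg (ha k) hK.le) (Finset.mem_range.2 h1)
            linarith
          have h4 : a k ≤ z * a K := by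
            rwa [div_le_iff₀ hK] at h2
          have h5 : z ^ K = z ^ k * z ^ (K - k) := by
            rw [← pow_add]
            congr 1
            omega
          have h6 : z ≤ z ^ (K - k) := by
            calc z = z ^ 1 := (pow_one z).symm
              _ ≤ z ^ (K - k) := pow_le_pow_right₀ hz1 (by omega)
          have h7 : 0 ≤ z ^ k := by positivity
          rw [ht, h5]
          calc a k * z ^ k ≤ (z * a K) * z ^ k := mul_le_mul_of_nonneg_right h4 h7
            _ = a K * (z ^ k * z) := by ring
            _ ≤ a K * (z ^ k * z ^ (K - k)) := by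
                apply mul_le_mul_of_nonneg_left _ hK.le
                exact mul_le_mul_of_nonneg_left h6 h7
        · have : k = K := by omega
          rw [this]
      · have e : k = K + 1 + (k - (K + 1)) := by omega
        rw [e, hvan]
        simp
    calc ∑ k ∈ range (D + 1), a k * z ^ k
        ≤ ∑ k ∈ range (D + 1), (if k ≤ K then t else 0) := Finset.sum_le_sum fun k _ => hpt k
      _ = ∑ k ∈ (range (D + 1)).filter (fun k => k ≤ K), t := by
          rw [Finset.sum_filter]
      _ = (((range (D + 1)).filter (fun k => k ≤ K)).card : ℝ) * t := by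
          rw [Finset.sum_const, nsmul_eq_mul]
      _ ≤ ((K : ℝ) + 1) * t := by
          apply mul_le_mul_of_nonneg_right _ htpos.le
          have : ((range (D + 1)).filter (fun k => k ≤ K)).card ≤ (range (K + 1)).card := by
            apply Finset.card_le_card
            intro k hk
            simp only [Finset.mem_filter, Finset.mem_range] at hk ⊢
            omega
          rw [Finset.card_range] at this
          exact_mod_cast this
      _ ≤ 4 * ((K : ℝ) + 1) * t := by
          have : (0 : ℝ) ≤ ((K : ℝ) + 1) * t := by positivity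
          nlinarith

end Vale.Agent.Lib.P328_helper60.Seq
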