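import Mathlib
import Vale.Agent.Lib.P328_helper60.Flow
import Vale.Agent.Lib.P328_helper60.Tables
import Vale.Agent.Lib.P328_helper60.Seq

namespace Vale.Agent.Lib.P328_helper60.Capacity

open Finset
open Vale.Agent.Lib.P328_helper60.Flow
open Vale.Agent.Lib.P328_helper60.Tables

variable {m n : ℕ}

/-- Complete homogeneous symmetric polynomial of degree `d` evaluated at `x`. -/
noncomputable def h (d : ℕ) (x : Fin n → ℝ) : ℝ :=
  ∑ p ∈ Finset.piAntidiag Finset.univ d, ∏ l, x l ^ p l

/-- Column sum of a table. -/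
def col (T : Fin m → Fin n → ℕ) (l : Fin n) : ℕ := ∑ a, T a l

/-- Tables with row sums `r` and column sums `v` on the columns in `J`, free on the others. -/
noncomputable def tabJ (r : Fin m → ℕ) (J : Finset (Fin n)) (v : Fin n → ℕ) :
    Finset (Fin m → Fin n → ℕ) :=
  (Fintype.piFinset fun a => Finset.piAntidiag Finset.univ (r a)).filter
    fun T => ∀ l ∈ J, col T l = v l

lemma mem_tabJ {r : Fin m → ℕ} {J : Finset (Fin n)} {v : Fin n → ℕ} {T : Fin m → Fin n → ℕ} :
    T ∈ tabJ r J v ↔ (∀ a, ∑ j, T a j = r a) ∧ ∀ l ∈ J, col T l = v l := by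
  simp [tabJ, Fintype.mem_piFinset, Finset.mem_piAntidiag]

/-- The weight of a table: the free columns get the monomial of their column sums. -/
noncomputable def wt (J : Finset (Fin n)) (x : Fin n → ℝ) (T : Fin m → Fin n → ℕ) : ℝ :=
  ∏ l, if l ∈ J then 1 else x l ^ col T l

/-- The partition function with columns `J` pinned at `v`. -/
noncomputable def A (r : Fin m → ℕ) (J : Finset (Fin n)) (v : Fin n → ℕ) (x : Fin n → ℝ) : ℝ :=
  ∑ T ∈ tabJ r J v, wt J x T

lemma wt_pos (J : Finset (Fin n)) {x : Fin n → ℝ} (hx : ∀ l, 0 < x l) (T : Fin m → Fin n → ℕ) :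
    0 < wt J x T := by
  apply Finset.prod_pos
  intro l _
  split_ifs
  · exact one_pos
  · exact pow_pos (hx l) _

lemma A_nonneg (r : Fin m → ℕ) (J : Finset (Fin n)) (v : Fin n → ℕ) {x : Fin n → ℝ}
    (hx : ∀ l, 0 < x l) : 0 ≤ A r J v x :=
  Finset.sum_nonneg fun T _ => (wt_pos J hx T).le

/-- Masked divergence. -/
def divJ (m : ℕ) (J : Finset (Fin n)) : ((Fin m × Fin n) → ℤ) →+ ((Fin m ⊕ Fin n) → ℤ) where
  toFun f := Sum.elim (fun a => ∑ j, f (a, j)) (fun j => if j ∈ J then ∑ a, f (a, j) else 0)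
  map_zero' := by
    funext k
    cases k <;> simp
  map_add' f g := by
    funext k
    cases k with
    | inl a => simp [Finset.sum_add_distrib]
    | inr j =>
      by_cases hj : j ∈ J <;> simp [hj, Finset.sum_add_distrib]

/-- Masked target. -/
def tgtJ (m : ℕ) (J : Finset (Fin n)) (d : Fin n → ℤ) : (Fin m ⊕ Fin n) → ℤ :=
  Sum.elim (fun _ => 0) (fun j => if j ∈ J then d j else 0)

lemma divJ_eq_tgtJ {J : Finset (Fin n)} {f : (Fin m × Fin n) → ℤ} {d : Fin n → ℤ} :
    divJ m J f = tgtJ m J d ↔ (∀ a, ∑ j, f (a, j) = 0) ∧ ∀ j ∈ J, ∑ a, f (a, j) = d j := by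
  constructor
  · intro h
    refine ⟨fun a => congrFun h (Sum.inl a), fun j hj => ?_⟩
    have := congrFun h (Sum.inr j)
    simpa [divJ, tgtJ, hj] using this
  · rintro ⟨h1, h2⟩
    funext k
    cases k with
    | inl a => exact h1 a
    | inr j =>
      by_cases hj : j ∈ J
      · simpa [divJ, tgtJ, hj] using h2 j hj
      · simp [divJ, tgtJ, hj]

/-- Pair-sum arrays with columns in `J` pinned. -/
def SSJ (r : Fin m → ℕ) (J : Finset (Fin n)) (c : Fin n → ℕ) : Finset ((Fin m × Fin n) → ℕ) :=
  (Fintype.piFinset fun e : Fin m × Fin n => Finset.range (2 * r e.1 + 1)).filter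
    fun S => (∀ a, ∑ j, S (a, j) = 2 * r a) ∧ ∀ j ∈ J, ∑ a, S (a, j) = c j

lemma mem_SSJ {r : Fin m → ℕ} {J : Finset (Fin n)} {c : Fin n → ℕ} {S : (Fin m × Fin n) → ℕ} :
    S ∈ SSJ r J c ↔ (∀ a, ∑ j, S (a, j) = 2 * r a) ∧ ∀ j ∈ J, ∑ a, S (a, j) = c j := by
  simp only [SSJ, Finset.mem_filter, Fintype.mem_piFinset, Finset.mem_range]
  constructor
  · exact fun h => h.2
  · intro h
    refine ⟨fun e => ?_, h⟩
    have h1 : S (e.1, e.2) ≤ ∑ j, S (e.1, j) :=
      Finset.single_le_sum (f := fun j => S (e.1, j)) (fun _ _ => Nat.zero_le _)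
        (Finset.mem_univ e.2)
    have := h.1 e.1
    simp only [Prod.mk.eta] at h1
    omega

/-- The weight of a pair-sum array. -/
noncomputable def wS (J : Finset (Fin n)) (x : Fin n → ℝ) (S : (Fin m × Fin n) → ℕ) : ℝ :=
  ∏ l, if l ∈ J then 1 else x l ^ ∑ a, S (a, l)

lemma wt_mul_wt (J : Finset (Fin n)) (x : Fin n → ℝ) (T1 T2 : Fin m → Fin n → ℕ)
    (S : (Fin m × Fin n) → ℕ) (hS : ∀ e, S e = T1 e.1 e.2 + T2 e.1 e.2) :
    wt J x T1 * wt J x T2 = wS J x S := by
  unfold wt wS
  rw [← Finset.prod_mul_distrib]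
  apply Finset.prod_congr rfl
  intro l _
  by_cases hl : l ∈ J
  · simp [hl]
  · simp only [hl, if_false, col, ← pow_add]
    congr 1
    rw [← Finset.sum_add_distrib]
    apply Finset.sum_congr rfl
    intro a _
    exact (hS (a, l)).symm

/-- Pair formula. -/
theorem pair_formula (r : Fin m → ℕ) (J : Finset (Fin n)) (v v' : Fin n → ℕ) (x : Fin n → ℝ) :
    A r J v x * A r J v' x = ∑ S ∈ SSJ r J (fun j => v j + v' j),
      wS J x S * ((F (divJ m J) S (tgtJ m J fun j => (v j : ℤ) - v' j)).card : ℝ) := by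
  classical
  unfold A
  rw [Finset.sum_mul_sum, ← Finset.sum_product']
  let t : (Fin m → Fin n → ℕ) × (Fin m → Fin n → ℕ) → ((Fin m × Fin n) → ℕ) :=
    fun p e => p.1 e.1 e.2 + p.2 e.1 e.2
  have hmaps : ∀ p ∈ (tabJ r J v) ×ˢ (tabJ r J v'), t p ∈ SSJ r J (fun j => v j + v' j) := by
    rintro ⟨T1, T2⟩ hp
    obtain ⟨h1, h2⟩ := Finset.mem_product.1 hp
    obtain ⟨h1r, h1c⟩ := mem_tabJ.1 h1
    obtain ⟨h2r, h2c⟩ := mem_tabJ.1 h2
    refine mem_SSJ.2 ⟨fun a => ?_, fun j hj => ?_⟩
    · simp only [t, Finset.sum_add_distrib]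
      rw [h1r, h2r]
      omega
    · simp only [t, Finset.sum_add_distrib]
      have e1 := h1c j hj
      have e2 := h2c j hj
      simp only [col] at e1 e2
      rw [e1, e2]
  rw [← Finset.sum_fiberwise_of_maps_to hmaps]
  apply Finset.sum_congr rfl
  intro S hS
  obtain ⟨hSr, hSc⟩ := mem_SSJ.1 hS
  have hw : ∀ p ∈ ((tabJ r J v) ×ˢ (tabJ r J v')).filter (fun p => t p = S),
      wt J x p.1 * wt J x p.2 = wS J x S := by
    rintro ⟨T1, T2⟩ hp
    obtain ⟨-, hST⟩ := Finset.mem_filter.1 hp
    exact wt_mul_wt J x T1 T2 S fun e => (congrFun hST e).symm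
  rw [Finset.sum_congr rfl hw, Finset.sum_const, nsmul_eq_mul, mul_comm]
  congr 2
  refine Finset.card_nbij' (fun p e => (p.1 e.1 e.2 : ℤ) - p.2 e.1 e.2)
    (fun f => (fun a j => (((S (a, j) : ℤ) + f (a, j)) / 2).toNat,
      fun a j => (((S (a, j) : ℤ) - f (a, j)) / 2).toNat)) ?_ ?_ ?_ ?_
  · rintro ⟨T1, T2⟩ hp
    simp only [coe_filter, mem_product, Set.mem_ofPred_eq] at hp
    obtain ⟨⟨h1, h2⟩, hST⟩ := hp
    obtain ⟨h1r, h1c⟩ := mem_tabJ.1 h1
    obtain ⟨h2r, h2c⟩ := mem_tabJ.1 h2
    have hSe : ∀ e, S e = T1 e.1 e.2 + T2 e.1 e.2 := fun e => (congrFun hST e).symm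
    simp only [mem_coe]
    refine mem_F.2 ⟨fun e => ?_, fun e => ?_, ?_⟩
    · have := hSe e
      omega
    · have := hSe e
      omega
    · refine divJ_eq_tgtJ.2 ⟨fun a => ?_, fun j hj => ?_⟩
      · simp only [Finset.sum_sub_distrib, ← Nat.cast_sum, h1r, h2r]
        simp
      · have e1 := h1c j hj
        have e2 := h2c j hj
        simp only [col] at e1 e2
        simp only [Finset.sum_sub_distrib, ← Nat.cast_sum, e1, e2]
  · intro f hf
    obtain ⟨hf1, hf2, hf3⟩ := mem_F.1 hf
    obtain ⟨hrow, hcol⟩ := divJ_eq_tgtJ.1 hf3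
    have hT1 : ∀ a j, ((((S (a, j) : ℤ) + f (a, j)) / 2).toNat : ℤ) * 2 = S (a, j) + f (a, j) := by
      intro a j
      have := hf1 (a, j); have := hf2 (a, j)
      omega
    have hT2 : ∀ a j, ((((S (a, j) : ℤ) - f (a, j)) / 2).toNat : ℤ) * 2 = S (a, j) - f (a, j) := by
      intro a j
      have := hf1 (a, j); have := hf2 (a, j)
      omega
    simp only [coe_filter, mem_product, Set.mem_ofPred_eq]
    refine ⟨⟨mem_tabJ.2 ⟨fun a => ?_, fun j hj => ?_⟩, mem_tabJ.2 ⟨fun a => ?_, fun j hj => ?_⟩⟩, ?_⟩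
    · have h : ((∑ j, (((S (a, j) : ℤ) + f (a, j)) / 2).toNat : ℕ) : ℤ) * 2 = 2 * r a := by
        rw [Nat.cast_sum, Finset.sum_mul]
        simp only [hT1, Finset.sum_add_distrib, hrow, ← Nat.cast_sum, hSr]
        simp
      omega
    · have h : ((∑ a, (((S (a, j) : ℤ) + f (a, j)) / 2).toNat : ℕ) : ℤ) * 2 = 2 * v j := by
        rw [Nat.cast_sum, Finset.sum_mul]
        simp only [hT1, Finset.sum_add_distrib, hcol j hj, ← Nat.cast_sum, hSc j hj]
        push_cast
        ring
      simp only [col]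
      omega
    · have h : ((∑ j, (((S (a, j) : ℤ) - f (a, j)) / 2).toNat : ℕ) : ℤ) * 2 = 2 * r a := by
        rw [Nat.cast_sum, Finset.sum_mul]
        simp only [hT2, Finset.sum_sub_distrib, hrow, ← Nat.cast_sum, hSr]
        simp
      omega
    · have h : ((∑ a, (((S (a, j) : ℤ) - f (a, j)) / 2).toNat : ℕ) : ℤ) * 2 = 2 * v' j := by
        rw [Nat.cast_sum, Finset.sum_mul]
        simp only [hT2, Finset.sum_sub_distrib, hcol j hj, ← Nat.cast_sum, hSc j hj]
        push_cast
        ring
      simp only [col]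
      omega
    · funext ⟨a, j⟩
      have h1 := hT1 a j
      have h2 := hT2 a j
      simp only [t]
      omega
  · rintro ⟨T1, T2⟩ hp
    simp only [coe_filter, mem_product, Set.mem_ofPred_eq] at hp
    obtain ⟨⟨h1, h2⟩, hST⟩ := hp
    have hSe : ∀ e, S e = T1 e.1 e.2 + T2 e.1 e.2 := fun e => (congrFun hST e).symm
    have hS3 : ∀ a j, S (a, j) = T1 a j + T2 a j := fun a j => hSe (a, j)
    ext a j
    · have := hS3 a j
      simp only
      omega
    · have := hS3 a j
      simp only
      omega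
  · intro f hf
    obtain ⟨hf1, hf2, hf3⟩ := mem_F.1 hf
    funext ⟨a, j⟩
    have := hf1 (a, j)
    have := hf2 (a, j)
    simp only
    omega

/-- Moving two units of excess out of a pinned source column into a free column. -/
lemma supportJ (J : Finset (Fin n)) (d : Fin n → ℤ) (j : Fin n) (hj : j ∈ J) (hd : 0 < d j)
    (hoth : ∀ l ∈ J, l ≠ j → d l = 0) (S : (Fin m × Fin n) → ℕ)
    (hne : (F (divJ m J) S (tgtJ m J d)).Nonempty) :
    (F (divJ m J) S (tgtJ m J fun l => d l - 2 * (if l = j then 1 else 0))).Nonempty := by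
  obtain ⟨f, hf⟩ := hne
  obtain ⟨hf1, hf2, hf3⟩ := mem_F.1 hf
  obtain ⟨hrow, hcol⟩ := divJ_eq_tgtJ.1 hf3
  have hDj : 0 < ∑ a, f (a, j) := by
    rw [hcol j hj]
    exact hd
  obtain ⟨g, q, hq, hconf, hgrow, hgcol⟩ :=
    conformal _ f (fun l => ∑ a, f (a, l)) j rfl hrow (fun _ => rfl) hDj
  have hqJ : q ∉ J := by
    intro hqJ
    have hqj : q ≠ j := by
      rintro rfl
      omega
    have h1 := hcol q hqJ
    have h2 := hoth q hqJ hqj
    omega
  refine ⟨fun e => f e - 2 * g e, mem_F.2 ⟨fun e => ?_, fun e => ?_, ?_⟩⟩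
  · have := hf1 e
    have := hconf e
    omega
  · have := hf2 e
    omega
  · refine divJ_eq_tgtJ.2 ⟨fun a => ?_, fun l hl => ?_⟩
    · simp only [Finset.sum_sub_distrib, ← Finset.mul_sum, hrow, hgrow]
      simp
    · have hlq : l ≠ q := by
        rintro rfl
        exact hqJ hl
      simp only [Finset.sum_sub_distrib, ← Finset.mul_sum, hcol l hl, hgcol, if_neg hlq]
      ring

/-- The ratio inequality for a pinned column. -/
theorem ratio (r : Fin m → ℕ) (J : Finset (Fin n)) (j : Fin n) (hj : j ∈ J) (c : Fin n → ℕ)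
    (x : Fin n → ℝ) (hx : ∀ l, 0 < x l) (i k : ℕ) (hik : i ≤ k) :
    A r J (Function.update c j i) x * A r J (Function.update c j (k + 2)) x
      ≤ A r J (Function.update c j (i + 1)) x * A r J (Function.update c j (k + 1)) x := by
  classical
  rw [mul_comm (A r J (Function.update c j i) x), mul_comm (A r J (Function.update c j (i + 1)) x)]
  rw [pair_formula, pair_formula]
  have hc : (fun l => (Function.update c j (k + 2)) l + (Function.update c j i) l)
      = (fun l => (Function.update c j (k + 1)) l + (Function.update c j (i + 1)) l) := by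
    funext l
    by_cases hl : l = j
    · subst hl
      simp only [Function.update_self]
      omega
    · simp only [Function.update_of_ne hl]
  rw [hc]
  apply Finset.sum_le_sum
  intro S _
  have hwS : 0 ≤ wS J x S := by
    apply Finset.prod_nonneg
    intro l _
    split_ifs
    · exact zero_le_one
    · exact (pow_pos (hx l) _).le
  apply mul_le_mul_of_nonneg_left _ hwS
  have hcard := card_le (divJ m J)
    (tgtJ m J fun l => ((Function.update c j (k + 2)) l : ℤ) - (Function.update c j i) l)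
    (tgtJ m J fun l => ((Function.update c j (k + 1)) l : ℤ) - (Function.update c j (i + 1)) l)
    (by
      intro S' hne
      have hd : (fun l => ((Function.update c j (k + 1)) l : ℤ) - (Function.update c j (i + 1)) l)
          = fun l => (((Function.update c j (k + 2)) l : ℤ) - (Function.update c j i) l)
              - 2 * (if l = j then 1 else 0) := by
        funext l
        by_cases hl : l = j
        · subst hl
          simp only [Function.update_self, if_true]
          push_cast
          ring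
        · simp only [Function.update_of_ne hl, if_neg hl]
          ring
      rw [hd]
      refine supportJ J _ j hj ?_ ?_ S' hne
      · simp only [Function.update_self]
        push_cast
        omega
      · intro l _ hl
        simp only [Function.update_of_ne hl]
        ring) S
  exact_mod_cast hcard

/-- Decomposition according to the sum of a free column. -/
theorem decompose (r : Fin m → ℕ) (J : Finset (Fin n)) (j : Fin n) (hj : j ∉ J) (c : Fin n → ℕ)
    (x : Fin n → ℝ) (z : ℝ) :
    A r J c (Function.update x j z)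
      = ∑ k ∈ range (∑ a, r a + 1), A r (insert j J) (Function.update c j k) x * z ^ k := by
  classical
  unfold A
  have hmaps : ∀ T ∈ tabJ r J c, col T j ∈ range (∑ a, r a + 1) := by
    intro T hT
    obtain ⟨h1, -⟩ := mem_tabJ.1 hT
    rw [Finset.mem_range, Nat.lt_succ_iff]
    unfold col
    apply Finset.sum_le_sum
    intro a _
    rw [← h1 a]
    exact Finset.single_le_sum (f := fun l => T a l) (fun _ _ => Nat.zero_le _) (Finset.mem_univ j)
  rw [← Finset.sum_fiberwise_of_maps_to hmaps]
  apply Finset.sum_congr rfl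
  intro k _
  rw [Finset.sum_mul]
  have hfib : (tabJ r J c).filter (fun T => col T j = k)
      = tabJ r (insert j J) (Function.update c j k) := by
    ext T
    simp only [Finset.mem_filter, mem_tabJ]
    constructor
    · rintro ⟨⟨h1, h2⟩, h3⟩
      refine ⟨h1, fun l hl => ?_⟩
      by_cases hlj : l = j
      · subst hlj
        simpa using h3
      · rw [Function.update_of_ne hlj]
        exact h2 l (Finset.mem_of_mem_insert_of_ne hl hlj)
    · rintro ⟨h1, h2⟩
      refine ⟨⟨h1, fun l hl => ?_⟩, ?_⟩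
      · have hlj : l ≠ j := by
          rintro rfl
          exact hj hl
        have := h2 l (Finset.mem_insert_of_mem hl)
        rwa [Function.update_of_ne hlj] at this
      · have := h2 j (Finset.mem_insert_self j J)
        simpa using this
  rw [hfib]
  apply Finset.sum_congr rfl
  intro T hT
  have hcolj : col T j = k := by
    have := (mem_tabJ.1 hT).2 j (Finset.mem_insert_self j J)
    simpa using this
  unfold wt
  rw [← Finset.mul_prod_erase Finset.univ _ (Finset.mem_univ j),
    ← Finset.mul_prod_erase Finset.univ (fun l => if l ∈ insert j J then (1 : ℝ) else x l ^ col T l)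
      (Finset.mem_univ j)]
  simp only [if_neg hj, Finset.mem_insert_self, if_true, Function.update_self, hcolj, one_mul]
  rw [mul_comm]
  congr 1
  apply Finset.prod_congr rfl
  intro l hl
  have hlj : l ≠ j := Finset.ne_of_mem_erase hl
  simp only [Finset.mem_insert, hlj, false_or, Function.update_of_ne hlj]

lemma tabJ_univ (r : Fin m → ℕ) (c : Fin n → ℕ) : tabJ r Finset.univ c = tables r c := by
  ext T
  rw [mem_tabJ, mem_tables]
  simp [col]

/-- Recursion over the set of free columns. -/
theorem exists_x (r : Fin m → ℕ) (c : Fin n → ℕ) (hne : (tables r c).Nonempty)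
    (K : Finset (Fin n)) :
    ∃ x : Fin n → ℝ, (∀ l, 0 < x l) ∧
      A r (Finset.univ \ K) c x
        ≤ (∏ l ∈ K, (4 * ((c l : ℝ) + 1) * x l ^ c l)) * ((W r c : ℝ)) := by
  classical
  induction K using Finset.induction_on with
  | empty =>
    refine ⟨fun _ => 1, fun _ => one_pos, ?_⟩
    have h1 : A r (Finset.univ \ (∅ : Finset (Fin n))) c (fun _ => 1) = (W r c : ℝ) := by
      unfold A W
      rw [Finset.sdiff_empty, tabJ_univ]
      have hw : ∀ T ∈ tables r c, wt Finset.univ (fun _ : Fin n => (1 : ℝ)) T = 1 := by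
        intro T _
        simp [wt]
      rw [Finset.sum_congr rfl hw]
      simp
    rw [h1]
    simp
  | insert j K hjK ih =>
    obtain ⟨x, hx, hA⟩ := ih
    set J : Finset (Fin n) := Finset.univ \ insert j K with hJ
    have hjJ : j ∉ J := by
      simp [hJ]
    have hins : insert j J = Finset.univ \ K := by
      ext l
      by_cases hl : l = j
      · subst hl
        simp [hjK]
      · simp [hJ, hl]
    let a : ℕ → ℝ := fun k => A r (insert j J) (Function.update c j k) x
    have ha : ∀ k, 0 ≤ a k := fun k => A_nonneg _ _ _ hx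
    have hH : ∀ i l, i ≤ l → a i * a (l + 2) ≤ a (i + 1) * a (l + 1) :=
      fun i l hil => ratio r (insert j J) j (Finset.mem_insert_self j J) c x hx i l hil
    have hac : a (c j) = A r (Finset.univ \ K) c x := by
      simp only [a]
      rw [Function.update_eq_self, hins]
    have hpos : 0 < a (c j) := by
      obtain ⟨T, hT⟩ := hne
      have hT' : T ∈ tabJ r (Finset.univ \ K) c := by
        obtain ⟨h1, h2⟩ := mem_tables.1 hT
        exact mem_tabJ.2 ⟨h1, fun l _ => h2 l⟩
      rw [hac]
      unfold A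
      exact Finset.sum_pos' (fun T _ => (wt_pos _ hx T).le) ⟨T, hT', wt_pos _ hx T⟩
    obtain ⟨z, hz, hzb⟩ := Seq.exists_tilt a ha hH (c j) hpos (∑ a, r a)
    refine ⟨Function.update x j z, ?_, ?_⟩
    · intro l
      by_cases hl : l = j
      · subst hl
        simpa using hz
      · rw [Function.update_of_ne hl]
        exact hx l
    · rw [decompose r J j hjJ c x z]
      refine hzb.trans ?_
      rw [Finset.prod_insert hjK, hac]
      have hprod : ∏ l ∈ K, (4 * ((c l : ℝ) + 1) * Function.update x j z l ^ c l)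
          = ∏ l ∈ K, (4 * ((c l : ℝ) + 1) * x l ^ c l) := by
        apply Finset.prod_congr rfl
        intro l hl
        have hlj : l ≠ j := by
          rintro rfl
          exact hjK hl
        rw [Function.update_of_ne hlj]
      rw [hprod, Function.update_self]
      have h1 : 0 ≤ 4 * ((c j : ℝ) + 1) * z ^ c j := by positivity
      calc 4 * ((c j : ℝ) + 1) * (A r (Finset.univ \ K) c x * z ^ c j)
          = 4 * ((c j : ℝ) + 1) * z ^ c j * A r (Finset.univ \ K) c x := by ring
        _ ≤ 4 * ((c j : ℝ) + 1) * z ^ c j *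
              ((∏ l ∈ K, (4 * ((c l : ℝ) + 1) * x l ^ c l)) * (W r c : ℝ)) :=
            mul_le_mul_of_nonneg_left hA h1
        _ = _ := by ring

/-- At `J = ∅` the partition function is the product of the row polynomials. -/
theorem A_empty (r : Fin m → ℕ) (c : Fin n → ℕ) (x : Fin n → ℝ) :
    A r ∅ c x = ∏ a, h (r a) x := by
  classical
  unfold A h
  rw [Finset.prod_univ_sum]
  have : tabJ r ∅ c = Fintype.piFinset fun a => Finset.piAntidiag Finset.univ (r a) := by
    ext T
    simp [tabJ]
  rw [this]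
  apply Finset.sum_congr rfl
  intro T _
  unfold wt col
  simp only [Finset.notMem_empty, if_false]
  rw [Finset.prod_comm]
  apply Finset.prod_congr rfl
  intro l _
  rw [Finset.prod_pow_eq_pow_sum]

/-- Each table contributes the monomial `x^c`. -/
theorem lower (r : Fin m → ℕ) (c : Fin n → ℕ) (x : Fin n → ℝ) (hx : ∀ l, 0 < x l) :
    (W r c : ℝ) * ∏ l, x l ^ c l ≤ ∏ a, h (r a) x := by
  classical
  rw [← A_empty r c x]
  unfold A W
  have hsub : tables r c ⊆ tabJ r ∅ c := by
    intro T hT
    obtain ⟨h1, -⟩ := mem_tables.1 hT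
    exact mem_tabJ.2 ⟨h1, by simp⟩
  have h1 : ∑ T ∈ tables r c, wt ∅ x T = (tables r c).card * ∏ l, x l ^ c l := by
    have : ∀ T ∈ tables r c, wt ∅ x T = ∏ l, x l ^ c l := by
      intro T hT
      obtain ⟨-, h2⟩ := mem_tables.1 hT
      unfold wt col
      simp [h2]
    rw [Finset.sum_congr rfl this, Finset.sum_const, nsmul_eq_mul]
  rw [← h1]
  exact Finset.sum_le_sum_of_subset_of_nonneg hsub fun T _ _ => (wt_pos _ hx T).le

/-- Capacity theorem. -/
theorem capacity (r : Fin m → ℕ) (c : Fin n → ℕ) (hne : (tables r c).Nonempty) :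
    (∀ x : Fin n → ℝ, (∀ l, 0 < x l) → (W r c : ℝ) * ∏ l, x l ^ c l ≤ ∏ a, h (r a) x) ∧
    ∃ x : Fin n → ℝ, (∀ l, 0 < x l) ∧
      ∏ a, h (r a) x ≤ (∏ l, (4 * ((c l : ℝ) + 1))) * ((W r c : ℝ) * ∏ l, x l ^ c l) := by
  refine ⟨lower r c, ?_⟩
  obtain ⟨x, hx, hA⟩ := exists_x r c hne Finset.univ
  refine ⟨x, hx, ?_⟩
  rw [Finset.sdiff_self, A_empty] at hA
  refine hA.trans (le_of_eq ?_)
  rw [Finset.prod_mul_distrib]
  ring

/-- A table exists as soon as the row total equals the column total. -/
theorem tables_nonempty : ∀ (N : ℕ) (r : Fin m → ℕ) (c : Fin n → ℕ),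
    ∑ a, r a = N → ∑ l, c l = N → (tables r c).Nonempty := by
  intro N
  induction N with
  | zero =>
    intro r c hr hc
    refine ⟨fun _ _ => 0, mem_tables.2 ⟨fun a => ?_, fun l => ?_⟩⟩
    · have := (Finset.sum_eq_zero_iff.1 hr) a (Finset.mem_univ a)
      simp [this]
    · have := (Finset.sum_eq_zero_iff.1 hc) l (Finset.mem_univ l)
      simp [this]
  | succ N ih =>
    intro r c hr hc
    classical
    obtain ⟨a, -, ha⟩ : ∃ a ∈ Finset.univ, r a ≠ 0 := by
      by_contra hcon
      push Not at hcon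
      have := Finset.sum_eq_zero hcon
      omega
    obtain ⟨l, -, hl⟩ : ∃ l ∈ Finset.univ, c l ≠ 0 := by
      by_contra hcon
      push Not at hcon
      have := Finset.sum_eq_zero hcon
      omega
    have hr' : ∑ b, Function.update r a (r a - 1) b = N := by
      have h1 := Finset.add_sum_erase Finset.univ r (Finset.mem_univ a)
      have h2 := Finset.add_sum_erase Finset.univ (Function.update r a (r a - 1)) (Finset.mem_univ a)
      have h3 : ∑ b ∈ Finset.univ.erase a, Function.update r a (r a - 1) b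
          = ∑ b ∈ Finset.univ.erase a, r b :=
        Finset.sum_congr rfl fun b hb => Function.update_of_ne (Finset.ne_of_mem_erase hb) _ _
      rw [Function.update_self] at h2
      omega
    have hc' : ∑ b, Function.update c l (c l - 1) b = N := by
      have h1 := Finset.add_sum_erase Finset.univ c (Finset.mem_univ l)
      have h2 := Finset.add_sum_erase Finset.univ (Function.update c l (c l - 1)) (Finset.mem_univ l)
      have h3 : ∑ b ∈ Finset.univ.erase l, Function.update c l (c l - 1) b
          = ∑ b ∈ Finset.univ.erase l, c b :=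
        Finset.sum_congr rfl fun b hb => Function.update_of_ne (Finset.ne_of_mem_erase hb) _ _
      rw [Function.update_self] at h2
      omega
    obtain ⟨T, hT⟩ := ih _ _ hr' hc'
    obtain ⟨h1, h2⟩ := mem_tables.1 hT
    refine ⟨fun b k => T b k + (if b = a ∧ k = l then 1 else 0), mem_tables.2 ⟨fun b => ?_, fun k => ?_⟩⟩
    · rw [Finset.sum_add_distrib, h1 b]
      by_cases hb : b = a
      · subst hb
        simp only [Function.update_self, true_and, Finset.sum_ite_eq', Finset.mem_univ, if_true]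
        omega
      · simp [hb, Function.update_of_ne hb]
    · rw [Finset.sum_add_distrib, h2 k]
      by_cases hk : k = l
      · subst hk
        simp only [Function.update_self, and_true, Finset.sum_ite_eq', Finset.mem_univ, if_true]
        omega
      · simp [hk, Function.update_of_ne hk]

/-- Transposition symmetry of the number of tables. -/
theorem W_transpose (r : Fin m → ℕ) (c : Fin n → ℕ) : W r c = W c r := by
  unfold W
  refine Finset.card_nbij' (fun T l a => T a l) (fun T a l => T l a) ?_ ?_ ?_ ?_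
  · intro T hT
    obtain ⟨h1, h2⟩ := mem_tables.1 (mem_coe.1 hT)
    exact mem_coe.2 (mem_tables.2 ⟨h2, h1⟩)
  · intro T hT
    obtain ⟨h1, h2⟩ := mem_tables.1 (mem_coe.1 hT)
    exact mem_coe.2 (mem_tables.2 ⟨h2, h1⟩)
  · intro T _
    rfl
  · intro T _
    rfl

/-- Capacity theorem, both ways. -/
theorem capacity_both (r : Fin m → ℕ) (c : Fin n → ℕ) (hrc : ∑ a, r a = ∑ l, c l) :
    ((∀ x : Fin n → ℝ, (∀ l, 0 < x l) → (W r c : ℝ) * ∏ l, x l ^ c l ≤ ∏ a, h (r a) x) ∧
      ∃ x : Fin n → ℝ, (∀ l, 0 < x l) ∧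
        ∏ a, h (r a) x ≤ (∏ l, (4 * ((c l : ℝ) + 1))) * ((W r c : ℝ) * ∏ l, x l ^ c l)) ∧
    ((∀ y : Fin m → ℝ, (∀ a, 0 < y a) → (W r c : ℝ) * ∏ a, y a ^ r a ≤ ∏ l, h (c l) y) ∧
      ∃ y : Fin m → ℝ, (∀ a, 0 < y a) ∧
        ∏ l, h (c l) y ≤ (∏ a, (4 * ((r a : ℝ) + 1))) * ((W r c : ℝ) * ∏ a, y a ^ r a)) := by
  refine ⟨capacity r c (tables_nonempty _ r c rfl hrc.symm), ?_⟩
  rw [W_transpose r c]
  exact capacity c r (tables_nonempty _ c r rfl hrc)

end Vale.Agent.Lib.P328_helper60.Capacity
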